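import Mathlib

/-!
# Kemperman's theorem on product sets with a uniquely represented element

If `A`, `B` are finite subsets of a group, both containing `1`, and `1 = a * b` with
`a ∈ A`, `b ∈ B` only for `a = b = 1`, then `|A| + |B| - 1 ≤ |A * B|`.
-/

open Finset
open scoped Pointwise

namespace Vale.Agent.P038

variable {G : Type*} [Group G] [DecidableEq G]

lemma card_union_image_add_card_filter_right (A : Finset G) (x : G) :
    (A ∪ A.image (· * x)).card + (A.filter (fun a => a * x ∈ A)).card = 2 * A.card := by
  have h1 : (A.filter (fun a => a * x ∈ A)).card = (A ∩ A.image (· * x)).card := by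
    rw [← card_image_of_injective (A.filter (fun a => a * x ∈ A)) (mul_left_injective x)]
    congr 1
    ext y
    simp only [mem_image, mem_filter, mem_inter]
    constructor
    · rintro ⟨a, ⟨ha, hax⟩, rfl⟩
      exact ⟨hax, a, ha, rfl⟩
    · rintro ⟨hy, a, ha, rfl⟩
      exact ⟨a, ⟨ha, hy⟩, rfl⟩
  rw [h1, card_union_add_card_inter, card_image_of_injective _ (mul_left_injective x)]
  ring

lemma card_union_image_add_card_filter_left (B : Finset G) (x : G) :
    (B ∪ B.image (x * ·)).card + (B.filter (fun b => x * b ∈ B)).card = 2 * B.card := by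
  have h1 : (B.filter (fun b => x * b ∈ B)).card = (B ∩ B.image (x * ·)).card := by
    rw [← card_image_of_injective (B.filter (fun b => x * b ∈ B)) (mul_right_injective x)]
    congr 1
    ext y
    simp only [mem_image, mem_filter, mem_inter]
    constructor
    · rintro ⟨a, ⟨ha, hax⟩, rfl⟩
      exact ⟨hax, a, ha, rfl⟩
    · rintro ⟨hy, a, ha, rfl⟩
      exact ⟨a, ⟨ha, hy⟩, rfl⟩
  rw [h1, card_union_add_card_inter, card_image_of_injective _ (mul_right_injective x)]
  ring

/-- If `1 ∈ A` and `A * x ⊆ A` for a finite set `A`, then `x⁻¹ ∈ A`. -/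
lemma inv_mem_of_mul_right_stable (A : Finset G) (x : G) (h1 : (1 : G) ∈ A)
    (h : ∀ a ∈ A, a * x ∈ A) : x⁻¹ ∈ A := by
  -- right multiplication by `x` is an injective self-map of the finite set `A`, hence surjective
  have hsurj : Set.SurjOn (· * x) (A : Set G) (A : Set G) :=
    Finset.surjOn_of_injOn_of_card_le (· * x) (fun a ha => h a ha)
      ((mul_left_injective x).injOn) le_rfl
  obtain ⟨a, ha, hax⟩ := hsurj (show (1 : G) ∈ (A : Set G) from h1)
  have : a = x⁻¹ := eq_inv_of_mul_eq_one_left hax
  exact this ▸ ha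

lemma inv_mem_of_mul_left_stable (B : Finset G) (x : G) (h1 : (1 : G) ∈ B)
    (h : ∀ b ∈ B, x * b ∈ B) : x⁻¹ ∈ B := by
  have hsurj : Set.SurjOn (x * ·) (B : Set G) (B : Set G) :=
    Finset.surjOn_of_injOn_of_card_le (x * ·) (fun a ha => h a ha)
      ((mul_right_injective x).injOn) le_rfl
  obtain ⟨a, ha, hax⟩ := hsurj (show (1 : G) ∈ (B : Set G) from h1)
  have : a = x⁻¹ := eq_inv_of_mul_eq_one_right hax
  exact this ▸ ha

/-- **Kemperman's theorem** (unique representation of the identity). -/
theorem kemperman (A B : Finset G) (hA : (1 : G) ∈ A) (hB : (1 : G) ∈ B)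
    (huniq : ∀ a ∈ A, ∀ b ∈ B, a * b = 1 → a = 1) :
    A.card + B.card ≤ (A * B).card + 1 := by
  -- strong induction on a natural number measure
  obtain ⟨n, hn⟩ : ∃ n, (2 * (A * B).card - (A.card + B.card)) * ((A * B).card + 1) + A.card = n :=
    ⟨_, rfl⟩
  induction n using Nat.strong_induction_on generalizing A B with
  | _ n ih =>
  by_cases hAB : A ∩ B = {1}
  · -- then `A ∪ B ⊆ A * B` has the right size
    have hsub : A ∪ B ⊆ A * B := by
      intro y hy
      rcases mem_union.1 hy with hy | hy
      · exact mem_mul.2 ⟨y, hy, 1, hB, mul_one y⟩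
      · exact mem_mul.2 ⟨1, hA, y, hy, one_mul y⟩
    have hc := card_union_add_card_inter A B
    rw [hAB, card_singleton] at hc
    have := card_le_card hsub
    omega
  · -- pick `x ∈ A ∩ B`, `x ≠ 1`
    obtain ⟨x, hxAB, hx1⟩ : ∃ x ∈ A ∩ B, x ≠ 1 := by
      by_contra hcon
      push Not at hcon
      apply hAB
      ext y
      simp only [mem_singleton]
      constructor
      · exact hcon y
      · rintro rfl
        exact mem_inter.2 ⟨hA, hB⟩
    have hxA : x ∈ A := (mem_inter.1 hxAB).1
    have hxB : x ∈ B := (mem_inter.1 hxAB).2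
    have hxinvA : x⁻¹ ∉ A := fun h => hx1 (by
      have := huniq x⁻¹ h x hxB (inv_mul_cancel x)
      simpa using this)
    have hxinvB : x⁻¹ ∉ B := fun h => hx1 (huniq x hxA x⁻¹ h (mul_inv_cancel x))
    -- the two transforms
    set A1 := A ∪ A.image (· * x) with hA1
    set B1 := B.filter (fun b => x * b ∈ B) with hB1
    set A2 := A.filter (fun a => a * x ∈ A) with hA2
    set B2 := B ∪ B.image (x * ·) with hB2
    have hcA : A1.card + A2.card = 2 * A.card := card_union_image_add_card_filter_right A x
    have hcB : B2.card + B1.card = 2 * B.card := card_union_image_add_card_filter_left B x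
    have hsub1 : A1 * B1 ⊆ A * B := by
      intro y hy
      obtain ⟨a, ha, b, hb, rfl⟩ := mem_mul.1 hy
      have hb' := mem_filter.1 hb
      rcases mem_union.1 ha with ha | ha
      · exact mem_mul.2 ⟨a, ha, b, hb'.1, rfl⟩
      · obtain ⟨a', ha', rfl⟩ := mem_image.1 ha
        exact mem_mul.2 ⟨a', ha', x * b, hb'.2, by simp [mul_assoc]⟩
    have hsub2 : A2 * B2 ⊆ A * B := by
      intro y hy
      obtain ⟨a, ha, b, hb, rfl⟩ := mem_mul.1 hy
      have ha' := mem_filter.1 ha
      rcases mem_union.1 hb with hb | hb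
      · exact mem_mul.2 ⟨a, ha'.1, b, hb, rfl⟩
      · obtain ⟨b', hb', rfl⟩ := mem_image.1 hb
        exact mem_mul.2 ⟨a * x, ha'.2, b', hb', by simp [mul_assoc]⟩
    have h1A1 : (1 : G) ∈ A1 := mem_union_left _ hA
    have h1B1 : (1 : G) ∈ B1 := mem_filter.2 ⟨hB, by simpa using hxB⟩
    have h1A2 : (1 : G) ∈ A2 := mem_filter.2 ⟨hA, by simpa using hxA⟩
    have h1B2 : (1 : G) ∈ B2 := mem_union_left _ hB
    have huniq1 : ∀ a ∈ A1, ∀ b ∈ B1, a * b = 1 → a = 1 := by
      intro a ha b hb hab
      have hb' := mem_filter.1 hb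
      rcases mem_union.1 ha with ha | ha
      · exact huniq a ha b hb'.1 hab
      · obtain ⟨a', ha', rfl⟩ := mem_image.1 ha
        have h1 : a' = 1 := huniq a' ha' (x * b) hb'.2 (by simpa [mul_assoc] using hab)
        subst h1
        exfalso
        apply hxinvB
        have : b = x⁻¹ := by
          have h2 : x * b = 1 := by simpa using hab
          exact eq_inv_of_mul_eq_one_right h2
        exact this ▸ hb'.1
    have huniq2 : ∀ a ∈ A2, ∀ b ∈ B2, a * b = 1 → a = 1 := by
      intro a ha b hb hab
      have ha' := mem_filter.1 ha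
      rcases mem_union.1 hb with hb | hb
      · exact huniq a ha'.1 b hb hab
      · obtain ⟨b', hb', rfl⟩ := mem_image.1 hb
        have h1 : a * x = 1 := huniq (a * x) ha'.2 b' hb' (by simpa [mul_assoc] using hab)
        exfalso
        apply hxinvA
        have : a = x⁻¹ := eq_inv_of_mul_eq_one_left h1
        exact this ▸ ha'.1
    -- `A2` is a proper subset of `A`
    have hA2lt : A2.card < A.card := by
      apply card_lt_card
      refine ⟨filter_subset _ _, fun hsub => hxinvA ?_⟩
      exact inv_mem_of_mul_right_stable A x hA (fun a ha => (mem_filter.1 (hsub ha)).2)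
    have hm1 := card_le_card hsub1
    have hm2 := card_le_card hsub2
    -- basic size bounds
    have hAle : A.card ≤ (A * B).card := card_le_card_mul_right ⟨1, hB⟩
    have hBle : B.card ≤ (A * B).card := card_le_card_mul_left ⟨1, hA⟩
    have hA1le : A1.card ≤ (A1 * B1).card := card_le_card_mul_right ⟨1, h1B1⟩
    have hB1le : B1.card ≤ (A1 * B1).card := card_le_card_mul_left ⟨1, h1A1⟩
    have hA2le : A2.card ≤ (A2 * B2).card := card_le_card_mul_right ⟨1, h1B2⟩
    have hB2le : B2.card ≤ (A2 * B2).card := card_le_card_mul_left ⟨1, h1A2⟩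
    by_cases hcase : A.card + B.card ≤ A2.card + B2.card
    · -- use the second transform
      have hlt : (2 * (A2 * B2).card - (A2.card + B2.card)) * ((A2 * B2).card + 1) + A2.card < n := by
        rw [← hn]
        have h3 : (2 * (A2 * B2).card - (A2.card + B2.card)) * ((A2 * B2).card + 1)
            ≤ (2 * (A * B).card - (A.card + B.card)) * ((A * B).card + 1) :=
          Nat.mul_le_mul (by omega) (by omega)
        omega
      have := ih _ hlt A2 B2 h1A2 h1B2 huniq2 rfl
      omega
    · -- use the first transform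
      have hgt : A.card + B.card < A1.card + B1.card := by omega
      have hlt : (2 * (A1 * B1).card - (A1.card + B1.card)) * ((A1 * B1).card + 1) + A1.card < n := by
        rw [← hn]
        have h3 : (2 * (A1 * B1).card - (A1.card + B1.card) + 1) * ((A1 * B1).card + 1)
            ≤ (2 * (A * B).card - (A.card + B.card)) * ((A * B).card + 1) :=
          Nat.mul_le_mul (by omega) (by omega)
        have h4 : (2 * (A1 * B1).card - (A1.card + B1.card) + 1) * ((A1 * B1).card + 1)
            = (2 * (A1 * B1).card - (A1.card + B1.card)) * ((A1 * B1).card + 1)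
              + ((A1 * B1).card + 1) := by ring
        omega
      have := ih _ hlt A1 B1 h1A1 h1B1 huniq1 rfl
      omega

end Vale.Agent.P038
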